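import Vale.Agent.Lib.P064F.Wrap

open Finset
open scoped Classical

namespace Vale.Agent.Lib.P064D

open Vale.Agent.Lib.P064 Vale.Agent.Lib.P064F

variable {V : Type} [Fintype V]

/-- All degrees of `H` are at most `D`, phrased without decidability data. -/
def DegLe (H : SimpleGraph V) (D : ℕ) : Prop :=
  ∀ (v : V) (S : Finset V), (∀ w ∈ S, H.Adj v w) → S.card ≤ D

/-- Connectivity, phrased through the boundary of a vertex set. -/
def Conn {α : Type} [Fintype α] (F : SimpleGraph α) : Prop :=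
  ∀ S : Finset α, S.Nonempty → S ≠ univ → ∃ z ∈ S, ∃ y, y ∉ S ∧ F.Adj z y

/-- Labelled copies of a connected graph agreeing on a nonempty set. -/
lemma card_agree_le {α : Type} [Fintype α] {H : SimpleGraph V} {F : SimpleGraph α} {D : ℕ}
    (hD : DegLe H D) (hF : Conn F) :
    ∀ (k : ℕ) (S : Finset α), S.Nonempty → Fintype.card α = S.card + k →
      ∀ A : Finset (α → V), A ⊆ Om H F → (∀ φ ∈ A, ∀ φ' ∈ A, ∀ a ∈ S, φ a = φ' a) →
        A.card ≤ D ^ k := by
  intro k
  induction k with
  | zero =>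
    intro S _ hk A _ hag
    have hS : S = univ := Finset.eq_univ_of_card S (by omega)
    rw [pow_zero]
    apply Finset.card_le_one.2
    intro φ hφ φ' hφ'
    funext a
    exact hag φ hφ φ' hφ' a (by simp [hS])
  | succ k ih =>
    intro S hS hk A hA hag
    have hne : S ≠ univ := by
      intro h
      rw [h, Finset.card_univ] at hk
      omega
    obtain ⟨z, hz, y, hy, hzy⟩ := hF S hS hne
    rcases A.eq_empty_or_nonempty with rfl | ⟨φ0, hφ0⟩
    · simp
    have hT : (A.image (fun φ => φ y)).card ≤ D := by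
      apply hD (φ0 z)
      intro w hw
      obtain ⟨φ, hφ, rfl⟩ := mem_image.1 hw
      rw [hag φ0 hφ0 φ hφ z hz]
      exact (mem_Om.1 (hA hφ)).2 z y hzy
    have hfib : ∀ w ∈ A.image (fun φ => φ y), (A.filter (fun φ => φ y = w)).card ≤ D ^ k := by
      intro w _
      refine ih (insert y S) (Finset.insert_nonempty _ _) ?_ _
        ((Finset.filter_subset _ _).trans hA) ?_
      · rw [Finset.card_insert_of_notMem hy]
        omega
      · intro φ hφ φ' hφ' a ha
        rcases Finset.mem_insert.1 ha with rfl | ha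
        · rw [(mem_filter.1 hφ).2, (mem_filter.1 hφ').2]
        · exact hag φ (mem_filter.1 hφ).1 φ' (mem_filter.1 hφ').1 a ha
    calc A.card ≤ D ^ k * (A.image (fun φ => φ y)).card := Finset.card_le_mul_card_image A _ hfib
      _ ≤ D ^ k * D := Nat.mul_le_mul_left _ hT
      _ = D ^ (k + 1) := by ring

lemma edges_ge_aux {α : Type} [Fintype α] {F : SimpleGraph α} (hF : Conn F) :
    ∀ (k : ℕ) (S : Finset α), S.Nonempty → Fintype.card α = S.card + k →
      k ≤ (F.edgeFinset.filter (fun e => ¬ ∀ a ∈ e, a ∈ S)).card := by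
  intro k
  induction k with
  | zero =>
    intro _ _ _
    exact Nat.zero_le _
  | succ k ih =>
    intro S hS hk
    have hne : S ≠ univ := by
      intro h
      rw [h, Finset.card_univ] at hk
      omega
    obtain ⟨z, hz, y, hy, hzy⟩ := hF S hS hne
    have h1 := ih (insert y S) (Finset.insert_nonempty _ _) (by
      rw [Finset.card_insert_of_notMem hy]
      omega)
    have hss : F.edgeFinset.filter (fun e => ¬ ∀ a ∈ e, a ∈ insert y S) ⊂
        F.edgeFinset.filter (fun e => ¬ ∀ a ∈ e, a ∈ S) := by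
      refine Finset.ssubset_iff_subset_ne.2 ⟨?_, ?_⟩
      · intro e he
        obtain ⟨h2, h3⟩ := mem_filter.1 he
        refine mem_filter.2 ⟨h2, fun h4 => h3 (fun a ha => Finset.mem_insert_of_mem (h4 a ha))⟩
      · intro heq
        have h5 : s(z, y) ∈ F.edgeFinset.filter (fun e => ¬ ∀ a ∈ e, a ∈ S) := by
          refine mem_filter.2 ⟨SimpleGraph.mem_edgeFinset.2 hzy, fun h4 => hy (h4 y (by simp))⟩
        rw [← heq] at h5
        refine (mem_filter.1 h5).2 ?_
        intro a ha
        rcases Sym2.mem_iff.1 ha with rfl | rfl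
        · exact Finset.mem_insert_of_mem hz
        · exact Finset.mem_insert_self _ _
    have := Finset.card_lt_card hss
    omega

/-- A connected graph has at least `v - 1` edges. -/
lemma card_le_edges {α : Type} [Fintype α] {F : SimpleGraph α} (hF : Conn F) (x : α) :
    Fintype.card α ≤ F.edgeFinset.card + 1 := by
  have hc : Fintype.card α = ({x} : Finset α).card + (Fintype.card α - 1) := by
    have : 0 < Fintype.card α := Fintype.card_pos_iff.2 ⟨x⟩
    rw [Finset.card_singleton]
    omega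
  have h1 := edges_ge_aux hF _ {x} (Finset.singleton_nonempty x) hc
  have h2 : (F.edgeFinset.filter (fun e => ¬ ∀ a ∈ e, a ∈ ({x} : Finset α))).card
      ≤ F.edgeFinset.card := Finset.card_filter_le _ _
  omega

/-- A family of labelled copies with pairwise disjoint images. -/
def Pack {α : Type} (M : Finset (α → V)) : Prop :=
  ∀ φ ∈ M, ∀ ψ ∈ M, φ ≠ ψ → ∀ a b, φ a ≠ ψ b

lemma exists_max_pack {α : Type} [Fintype α] (H : SimpleGraph V) (F : SimpleGraph α) (x : α) :
    ∃ M : Finset (α → V), M ⊆ Om H F ∧ Pack M ∧ ∀ φ ∈ Om H F, ∃ ψ ∈ M, ∃ a b, φ a = ψ b := by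
  set P := (Om H F).powerset.filter Pack with hP
  have h0 : (∅ : Finset (α → V)) ∈ P := by
    refine mem_filter.2 ⟨Finset.empty_mem_powerset _, ?_⟩
    intro φ hφ
    simp at hφ
  obtain ⟨M, hM, hmax⟩ := Finset.exists_max_image P Finset.card ⟨∅, h0⟩
  obtain ⟨hM1, hM2⟩ := mem_filter.1 hM
  refine ⟨M, Finset.mem_powerset.1 hM1, hM2, ?_⟩
  intro φ hφ
  by_contra hcon
  push Not at hcon
  have hnot : φ ∉ M := fun h => hcon φ h x x rfl
  have hins : insert φ M ∈ P := by
    refine mem_filter.2 ⟨Finset.mem_powerset.2 ?_, ?_⟩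
    · intro f hf
      rcases Finset.mem_insert.1 hf with rfl | hf
      · exact hφ
      · exact Finset.mem_powerset.1 hM1 hf
    · intro f hf g hg hfg a b
      rcases Finset.mem_insert.1 hf with hf' | hf'
      · rcases Finset.mem_insert.1 hg with hg' | hg'
        · exact absurd (hf'.trans hg'.symm) hfg
        · rw [hf']
          exact hcon g hg' a b
      · rcases Finset.mem_insert.1 hg with hg' | hg'
        · rw [hg']
          exact fun h => hcon f hf' b a h.symm
        · exact hM2 f hf' g hg' hfg a b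
  have h3 := hmax _ hins
  rw [Finset.card_insert_of_notMem hnot] at h3
  omega

/-- Every labelled copy meets the packing, so there are few labelled copies. -/
lemma card_Om_le_pack {α : Type} [Fintype α] {H : SimpleGraph V} {F : SimpleGraph α} {D : ℕ}
    (hD : DegLe H D) (hF : Conn F) {M : Finset (α → V)}
    (hM : ∀ φ ∈ Om H F, ∃ ψ ∈ M, ∃ a b, φ a = ψ b) :
    (Om H F).card ≤ M.card * Fintype.card α * Fintype.card α * D ^ (Fintype.card α - 1) := by
  set T : Finset ((α → V) × α × α) := M ×ˢ (univ ×ˢ univ) with hT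
  set f : ((α → V) × α × α) → Finset (α → V) :=
    fun t => (Om H F).filter (fun φ => φ t.2.1 = t.1 t.2.2) with hf
  have h1 : Om H F ⊆ T.biUnion f := by
    intro φ hφ
    obtain ⟨ψ, hψ, a, b, hab⟩ := hM φ hφ
    refine Finset.mem_biUnion.2 ⟨(ψ, a, b), ?_, mem_filter.2 ⟨hφ, hab⟩⟩
    simp [hT, hψ]
  have h2 : ∀ t ∈ T, (f t).card ≤ D ^ (Fintype.card α - 1) := by
    intro t _
    have hc : Fintype.card α = ({t.2.1} : Finset α).card + (Fintype.card α - 1) := by
      have : 0 < Fintype.card α := Fintype.card_pos_iff.2 ⟨t.2.1⟩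
      rw [Finset.card_singleton]
      omega
    refine card_agree_le hD hF _ {t.2.1} (Finset.singleton_nonempty _) hc _
      (Finset.filter_subset _ _) ?_
    intro φ hφ φ' hφ' a ha
    rw [Finset.mem_singleton.1 ha, (mem_filter.1 hφ).2, (mem_filter.1 hφ').2]
  have h3 := Finset.card_biUnion_le_card_mul T f _ h2
  have h4 : T.card = M.card * Fintype.card α * Fintype.card α := by
    rw [hT, Finset.card_product, Finset.card_product, Finset.card_univ]
    ring
  rw [h4] at h3
  exact (Finset.card_le_card h1).trans h3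

/-- Disjoint copies of `F` indexed by `I`. -/
def blow {α : Type} (F : SimpleGraph α) (I : Type) : SimpleGraph (I × α) where
  Adj u v := u.1 = v.1 ∧ F.Adj u.2 v.2
  symm := ⟨by
    rintro ⟨i, a⟩ ⟨j, b⟩ h
    exact ⟨h.1.symm, SimpleGraph.Adj.symm h.2⟩⟩
  loopless := ⟨by
    rintro ⟨i, a⟩ h
    exact SimpleGraph.irrefl _ h.2⟩

lemma blow_adj {α I : Type} {F : SimpleGraph α} {i j : I} {a b : α} :
    (blow F I).Adj (i, a) (j, b) ↔ i = j ∧ F.Adj a b := Iff.rfl

lemma blow_edges {α I : Type} [Fintype α] [Fintype I] (F : SimpleGraph α) :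
    Fintype.card I * F.edgeFinset.card ≤ (blow F I).edgeFinset.card := by
  have h1 : ((univ : Finset I) ×ˢ F.edgeFinset).card = Fintype.card I * F.edgeFinset.card := by
    rw [Finset.card_product, Finset.card_univ]
  rw [← h1]
  refine Finset.card_le_card_of_injOn (fun t => Sym2.map (fun a => (t.1, a)) t.2) ?_ ?_
  · rintro ⟨i, e⟩ he
    obtain ⟨_, he2⟩ := Finset.mem_product.1 (Finset.mem_coe.1 he)
    refine Finset.mem_coe.2 (SimpleGraph.mem_edgeFinset.2 ?_)
    have he3 := SimpleGraph.mem_edgeFinset.1 he2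
    simp only
    revert he3
    induction e using Sym2.ind with
    | _ a b =>
      intro he3
      exact ⟨rfl, he3⟩
  · rintro ⟨i, e⟩ _ ⟨j, e'⟩ _ heq
    simp only at heq
    induction e using Sym2.ind with
    | _ a b =>
      induction e' using Sym2.ind with
      | _ c d =>
        simp only [Sym2.map_mk, Sym2.eq_iff, Prod.mk.injEq] at heq
        rcases heq with ⟨⟨h1, h2⟩, _, h3⟩ | ⟨⟨h1, h2⟩, _, h3⟩
        · subst h1 h2 h3
          rfl
        · subst h1 h2 h3
          simp [Sym2.eq_swap]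

lemma blow_aut {α I : Type} [Fintype α] [Fintype I] (F : SimpleGraph α) (x : α) :
    (Fintype.card I).factorial ≤ Nat.card ((blow F I) ≃g (blow F I)) := by
  have : Finite ((blow F I) ≃g (blow F I)) := finite_aut (blow F I)
  rw [← Fintype.card_perm, ← Nat.card_eq_fintype_card]
  let Φ : Equiv.Perm I → ((blow F I) ≃g (blow F I)) := fun σ =>
    ⟨Equiv.prodCongr σ (Equiv.refl α), by
      rintro ⟨i, a⟩ ⟨j, b⟩
      simp [blow_adj]⟩
  apply Nat.card_le_card_of_injective Φ
  intro σ τ h
  ext i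
  have h1 : Φ σ (i, x) = Φ τ (i, x) := by rw [h]
  have h2 : σ i = τ i := congrArg Prod.fst h1
  rw [h2]

/-- From the automorphism hypothesis: the packing is small. -/
lemma pack_bound {α : Type} [Fintype α] {H : SimpleGraph V} {F : SimpleGraph α} {n : ℕ} {q : ℝ}
    (hq : 0 < q) (hq1 : q ≤ 1) (hK : HypK H n q) (x : α) {M : Finset (α → V)}
    (hM : M ⊆ Om H F) (hP : Pack M) :
    (M.card : ℝ) ≤ 2 * Real.exp 1 * ((n : ℝ) ^ Fintype.card α * q ^ F.edgeFinset.card) := by
  classical
  set X : ℝ := (n : ℝ) ^ Fintype.card α * q ^ F.edgeFinset.card with hX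
  have hX0 : 0 ≤ X := by rw [hX]; positivity
  rcases Nat.eq_zero_or_pos M.card with h0 | hpos
  · rw [h0]
    simp only [Nat.cast_zero]
    positivity
  have hinj : Function.Injective (fun u : ↥M × α => u.1.1 u.2) := by
    rintro ⟨i, a⟩ ⟨j, b⟩ hab
    simp only at hab
    by_cases hij : i = j
    · subst hij
      have := (mem_Om.1 (hM i.2)).1 hab
      rw [this]
    · exact absurd hab (hP i.1 i.2 j.1 j.2 (fun h => hij (Subtype.ext h)) a b)
  have hOm : (fun u : ↥M × α => u.1.1 u.2) ∈ Om H (blow F ↥M) := by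
    refine mem_Om.2 ⟨hinj, ?_⟩
    rintro ⟨i, a⟩ ⟨j, b⟩ hab
    obtain ⟨h1, h2⟩ := blow_adj.1 hab
    subst h1
    exact (mem_Om.1 (hM i.2)).2 a b h2
  have h1 := hK _ (blow F ↥M) (nonempty_copy hOm)
  have h2 := blow_aut (I := ↥M) F x
  have h3 := blow_edges (I := ↥M) F
  rw [Fintype.card_coe] at h2 h3
  have h4 : q ^ (blow F ↥M).edgeFinset.card ≤ q ^ (M.card * F.edgeFinset.card) :=
    pow_le_pow_of_le_one hq.le hq1 h3
  have h5 : Fintype.card (↥M × α) = M.card * Fintype.card α := by
    rw [Fintype.card_prod, Fintype.card_coe]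
  rw [h5] at h1
  have h6 : (M.card.factorial : ℝ) ≤ 2 * X ^ M.card := by
    calc (M.card.factorial : ℝ) ≤ Nat.card ((blow F ↥M) ≃g (blow F ↥M)) := by exact_mod_cast h2
      _ ≤ 2 * (n : ℝ) ^ (M.card * Fintype.card α) * q ^ (blow F ↥M).edgeFinset.card := h1
      _ ≤ 2 * (n : ℝ) ^ (M.card * Fintype.card α) * q ^ (M.card * F.edgeFinset.card) := by
          gcongr
      _ = 2 * X ^ M.card := by
          rw [hX, mul_pow, ← pow_mul, ← pow_mul, mul_comm (Fintype.card α), mul_comm F.edgeFinset.card]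
          ring
  have hexp := Real.exp_pos 1
  have h7 : ((M.card : ℝ) ^ M.card) / (M.card.factorial : ℝ) ≤ Real.exp (M.card : ℝ) :=
    Real.pow_div_factorial_le_exp _ (by positivity) _
  have hfac : (0 : ℝ) < (M.card.factorial : ℝ) := by exact_mod_cast Nat.factorial_pos _
  rw [div_le_iff₀ hfac] at h7
  have h8 : Real.exp (M.card : ℝ) = Real.exp 1 ^ M.card := by
    rw [← Real.exp_nat_mul, mul_one]
  rw [h8] at h7
  by_contra hcon
  push Not at hcon
  have h9 : (2 * Real.exp 1 * X) ^ M.card < (M.card : ℝ) ^ M.card :=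
    pow_lt_pow_left₀ hcon (by positivity) (by omega)
  have h10 : (2 : ℝ) ≤ 2 ^ M.card := by
    calc (2 : ℝ) = 2 ^ 1 := by norm_num
      _ ≤ 2 ^ M.card := pow_le_pow_right₀ (by norm_num) hpos
  have h11 : (M.card : ℝ) ^ M.card ≤ 2 * (Real.exp 1 * X) ^ M.card := by
    calc (M.card : ℝ) ^ M.card ≤ Real.exp 1 ^ M.card * (M.card.factorial : ℝ) := h7
      _ ≤ Real.exp 1 ^ M.card * (2 * X ^ M.card) := by gcongr
      _ = _ := by rw [mul_pow]; ring
  have h12 : (2 * Real.exp 1 * X) ^ M.card = 2 ^ M.card * (Real.exp 1 * X) ^ M.card := by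
    rw [mul_assoc, mul_pow]
  have h13 : 0 ≤ (Real.exp 1 * X) ^ M.card := by positivity
  rw [h12] at h9
  nlinarith

end Vale.Agent.Lib.P064D
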