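import Vale.Agent.Lib.P064D.A

open Finset
open scoped Classical

namespace Vale.Agent.Lib.P064D

open Vale.Agent.Lib.P064 Vale.Agent.Lib.P064F

variable {V : Type} [Fintype V]

lemma num_ineq (e : ℕ) (he : 1 ≤ e) : 6 * ((e : ℝ) + 1) ^ 2 ≤ 24 ^ e := by
  induction e, he using Nat.le_induction with
  | base => norm_num
  | succ e he ih =>
    have h0 : (0 : ℝ) ≤ (e : ℝ) := by positivity
    have h1 : (24 : ℝ) ^ (e + 1) = 24 ^ e * 24 := pow_succ _ _
    rw [h1]
    push_cast
    nlinarith

/-- The bound for connected graphs. -/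
theorem conn_bound {α : Type} [Fintype α] {H : SimpleGraph V} {F : SimpleGraph α} {n D : ℕ} {q : ℝ}
    (hV : Fintype.card V ≤ n) (hq : 0 < q) (hq1 : q ≤ 1) (hK : HypK H n q) (hD : DegLe H D)
    (hD1 : 1 ≤ D) (hF : Conn F) (x : α) :
    ((Om H F).card : ℝ) ≤ (n : ℝ) ^ Fintype.card α * (24 * (D : ℝ) * q) ^ F.edgeFinset.card := by
  have hv := card_le_edges hF x
  have hv1 : 1 ≤ Fintype.card α := Fintype.card_pos_iff.2 ⟨x⟩
  rcases Nat.eq_zero_or_pos F.edgeFinset.card with h0 | hpos
  · have hv' : Fintype.card α = 1 := by omega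
    rw [h0, hv']
    simp only [pow_zero, mul_one, pow_one]
    have hs : Subsingleton α := Fintype.card_le_one_iff_subsingleton.1 (by omega)
    have h1 : (Om H F).card ≤ (univ : Finset V).card := by
      refine Finset.card_le_card_of_injOn (fun φ => φ x) (fun _ _ => by simp) ?_
      intro φ _ φ' _ h
      funext a
      rw [Subsingleton.elim a x]
      exact h
    rw [Finset.card_univ] at h1
    exact_mod_cast h1.trans hV
  · obtain ⟨M, hM1, hM2, hM3⟩ := exists_max_pack H F x
    have h1 := card_Om_le_pack hD hF hM3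
    have h2 := pack_bound hq hq1 hK x hM1 hM2
    have h3 : ((Om H F).card : ℝ) ≤ (M.card : ℝ) * (Fintype.card α : ℝ) * (Fintype.card α : ℝ)
        * (D : ℝ) ^ (Fintype.card α - 1) := by
      exact_mod_cast h1
    have hvr : (Fintype.card α : ℝ) ≤ (F.edgeFinset.card : ℝ) + 1 := by exact_mod_cast hv
    have hD1r : (1 : ℝ) ≤ (D : ℝ) := by exact_mod_cast hD1
    have hDp : (D : ℝ) ^ (Fintype.card α - 1) ≤ (D : ℝ) ^ F.edgeFinset.card :=
      pow_le_pow_right₀ hD1r (by omega)
    have hexp : Real.exp 1 ≤ 3 := by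
      have := Real.exp_one_lt_d9
      linarith
    set X : ℝ := (n : ℝ) ^ Fintype.card α * q ^ F.edgeFinset.card with hX
    have hX0 : 0 ≤ X := by rw [hX]; positivity
    have hM' : (M.card : ℝ) ≤ 6 * X := by nlinarith
    have hnum := num_ineq F.edgeFinset.card hpos
    calc ((Om H F).card : ℝ) ≤ (M.card : ℝ) * (Fintype.card α : ℝ) * (Fintype.card α : ℝ)
          * (D : ℝ) ^ (Fintype.card α - 1) := h3
      _ ≤ (6 * X) * ((F.edgeFinset.card : ℝ) + 1) * ((F.edgeFinset.card : ℝ) + 1)
          * (D : ℝ) ^ F.edgeFinset.card := by gcongr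
      _ = X * (6 * ((F.edgeFinset.card : ℝ) + 1) ^ 2) * (D : ℝ) ^ F.edgeFinset.card := by ring
      _ ≤ X * 24 ^ F.edgeFinset.card * (D : ℝ) ^ F.edgeFinset.card := by gcongr
      _ = _ := by
          rw [hX, mul_pow, mul_pow]
          ring

/-- The component of a vertex is connected in the sense of `Conn`. -/
lemma conn_component {W : Type} [Fintype W] (K : SimpleGraph W) (x : W) :
    Conn (K.comap (Subtype.val : ↥(univ.filter (fun y => K.Reachable x y)) → W)) := by
  intro S hS hne
  obtain ⟨z0, hz0⟩ := hS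
  obtain ⟨w, hw⟩ : ∃ w, w ∉ S := by
    by_contra hcon
    push Not at hcon
    exact hne (Finset.eq_univ_iff_forall.2 hcon)
  have hrz : K.Reachable x z0.1 := (mem_filter.1 z0.2).2
  have hrw : K.Reachable x w.1 := (mem_filter.1 w.2).2
  obtain ⟨p⟩ := hrz.symm.trans hrw
  let T : Set W := {a | ∃ h : a ∈ univ.filter (fun y => K.Reachable x y), (⟨a, h⟩ : ↥(univ.filter (fun y => K.Reachable x y))) ∈ S}
  have hz0T : z0.1 ∈ T := ⟨z0.2, hz0⟩
  have hwT : w.1 ∉ T := by
    rintro ⟨h, h2⟩
    exact hw h2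
  obtain ⟨d, _, hd1, hd2⟩ := p.exists_boundary_dart T hz0T hwT
  obtain ⟨h1, h2⟩ := hd1
  have hr : K.Reachable x d.snd := ((mem_filter.1 h1).2).trans d.adj.reachable
  have hmem : d.snd ∈ univ.filter (fun y => K.Reachable x y) := mem_filter.2 ⟨mem_univ _, hr⟩
  refine ⟨⟨d.fst, h1⟩, h2, ⟨d.snd, hmem⟩, ?_, ?_⟩
  · intro h3
    exact hd2 ⟨hmem, h3⟩
  · exact d.adj

lemma edges_split {W : Type} [Fintype W] (K : SimpleGraph W) (x : W) :
    K.edgeFinset.card ≤
      (K.comap (Subtype.val : ↥(univ.filter (fun y => K.Reachable x y)) → W)).edgeFinset.card +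
      (K.comap (Subtype.val : ↥(univ.filter (fun y => ¬ K.Reachable x y)) → W)).edgeFinset.card := by
  set C := univ.filter (fun y => K.Reachable x y) with hC
  set C' := univ.filter (fun y => ¬ K.Reachable x y) with hC'
  have h1 : K.edgeFinset ⊆
      (K.comap (Subtype.val : ↥C → W)).edgeFinset.image (Sym2.map Subtype.val) ∪
      (K.comap (Subtype.val : ↥C' → W)).edgeFinset.image (Sym2.map Subtype.val) := by
    intro e he
    induction e using Sym2.ind with
    | _ a b =>
      have hab : K.Adj a b := SimpleGraph.mem_edgeFinset.1 he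
      by_cases ha : K.Reachable x a
      · have hb : K.Reachable x b := ha.trans hab.reachable
        have ha' : a ∈ C := mem_filter.2 ⟨mem_univ _, ha⟩
        have hb' : b ∈ C := mem_filter.2 ⟨mem_univ _, hb⟩
        refine Finset.mem_union_left _ (mem_image.2 ⟨s(⟨a, ha'⟩, ⟨b, hb'⟩), ?_, rfl⟩)
        exact SimpleGraph.mem_edgeFinset.2 hab
      · have hb : ¬ K.Reachable x b := fun h => ha (h.trans hab.symm.reachable)
        have ha' : a ∈ C' := mem_filter.2 ⟨mem_univ _, ha⟩
        have hb' : b ∈ C' := mem_filter.2 ⟨mem_univ _, hb⟩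
        refine Finset.mem_union_right _ (mem_image.2 ⟨s(⟨a, ha'⟩, ⟨b, hb'⟩), ?_, rfl⟩)
        exact SimpleGraph.mem_edgeFinset.2 hab
  exact (Finset.card_le_card h1).trans
    ((Finset.card_union_le _ _).trans (add_le_add Finset.card_image_le Finset.card_image_le))

lemma Om_split {W : Type} [Fintype W] (H : SimpleGraph V) (K : SimpleGraph W) (C C' : Finset W)
    (hcov : ∀ a, a ∈ C ∨ a ∈ C') :
    (Om H K).card ≤ (Om H (K.comap (Subtype.val : ↥C → W))).card *
      (Om H (K.comap (Subtype.val : ↥C' → W))).card := by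
  rw [← Finset.card_product]
  refine Finset.card_le_card_of_injOn
    (fun φ => (fun a : ↥C => φ a.1, fun b : ↥C' => φ b.1)) ?_ ?_
  · intro φ hφ
    obtain ⟨h1, h2⟩ := mem_Om.1 (Finset.mem_coe.1 hφ)
    refine Finset.mem_coe.2 (Finset.mem_product.2 ⟨mem_Om.2 ⟨?_, ?_⟩, mem_Om.2 ⟨?_, ?_⟩⟩)
    · intro a b hab
      exact Subtype.ext (h1 hab)
    · intro a b hab
      exact h2 _ _ hab
    · intro a b hab
      exact Subtype.ext (h1 hab)
    · intro a b hab
      exact h2 _ _ hab
  · intro φ _ φ' _ h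
    have h1 := congrArg Prod.fst h
    have h2 := congrArg Prod.snd h
    funext a
    rcases hcov a with ha | ha
    · exact congrFun h1 ⟨a, ha⟩
    · exact congrFun h2 ⟨a, ha⟩

/-- The bound for all graphs. -/
theorem gen_bound {H : SimpleGraph V} {n D : ℕ} {q : ℝ}
    (hV : Fintype.card V ≤ n) (hq : 0 < q) (hq1 : q ≤ 1) (hK : HypK H n q) (hD : DegLe H D)
    (hD1 : 1 ≤ D) (ht : 24 * (D : ℝ) * q ≤ 1) :
    ∀ (m : ℕ) (W : Type) [Fintype W] (K : SimpleGraph W), Fintype.card W = m →
      ((Om H K).card : ℝ) ≤ (n : ℝ) ^ Fintype.card W * (24 * (D : ℝ) * q) ^ K.edgeFinset.card := by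
  intro m
  induction m using Nat.strong_induction_on with
  | _ m ih =>
    intro W _ K hm
    have ht0 : 0 ≤ 24 * (D : ℝ) * q := by positivity
    by_cases hW : IsEmpty W
    · have h1 : (Om H K).card ≤ 1 :=
        Finset.card_le_one.2 (fun φ _ φ' _ => funext (fun a => (hW.false a).elim))
      have h2 : K.edgeFinset.card = 0 := by
        rw [Finset.card_eq_zero]
        refine Finset.eq_empty_of_forall_notMem ?_
        intro e _
        induction e using Sym2.ind with
        | _ a b => exact (hW.false a).elim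
      rw [h2, Fintype.card_eq_zero]
      simp only [pow_zero, mul_one]
      exact_mod_cast h1
    · obtain ⟨x⟩ := not_isEmpty_iff.1 hW
      set C := univ.filter (fun y => K.Reachable x y) with hC
      set C' := univ.filter (fun y => ¬ K.Reachable x y) with hC'
      have hxC : x ∈ C := mem_filter.2 ⟨mem_univ _, SimpleGraph.Reachable.refl x⟩
      have hcard : Fintype.card ↥C + Fintype.card ↥C' = Fintype.card W := by
        rw [Fintype.card_coe, Fintype.card_coe, hC, hC', Finset.card_filter_add_card_filter_not,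
          Finset.card_univ]
      have hpos : 0 < Fintype.card ↥C := Fintype.card_pos_iff.2 ⟨⟨x, hxC⟩⟩
      have hb1 := conn_bound hV hq hq1 hK hD hD1 (conn_component K x) (⟨x, hxC⟩ : ↥C)
      have hb2 := ih (Fintype.card ↥C') (by omega) ↥C' (K.comap (Subtype.val : ↥C' → W)) rfl
      have hs := Om_split H K C C' (fun a => by
        by_cases ha : K.Reachable x a
        · exact Or.inl (mem_filter.2 ⟨mem_univ _, ha⟩)
        · exact Or.inr (mem_filter.2 ⟨mem_univ _, ha⟩))
      have he := edges_split K x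
      have hn0 : (0 : ℝ) ≤ n := by positivity
      have hsr : ((Om H K).card : ℝ) ≤ ((Om H (K.comap (Subtype.val : ↥C → W))).card : ℝ) *
          ((Om H (K.comap (Subtype.val : ↥C' → W))).card : ℝ) := by
        exact_mod_cast hs
      calc ((Om H K).card : ℝ) ≤ ((Om H (K.comap (Subtype.val : ↥C → W))).card : ℝ) *
            ((Om H (K.comap (Subtype.val : ↥C' → W))).card : ℝ) := hsr
        _ ≤ ((n : ℝ) ^ Fintype.card ↥C *
              (24 * (D : ℝ) * q) ^ (K.comap (Subtype.val : ↥C → W)).edgeFinset.card) *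
            ((n : ℝ) ^ Fintype.card ↥C' *
              (24 * (D : ℝ) * q) ^ (K.comap (Subtype.val : ↥C' → W)).edgeFinset.card) :=
            mul_le_mul hb1 hb2 (by positivity) (by positivity)
        _ = (n : ℝ) ^ (Fintype.card ↥C + Fintype.card ↥C') *
              (24 * (D : ℝ) * q) ^ ((K.comap (Subtype.val : ↥C → W)).edgeFinset.card +
                (K.comap (Subtype.val : ↥C' → W)).edgeFinset.card) := by
            rw [pow_add, pow_add]
            ring
        _ ≤ _ := by
            rw [hcard]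
            exact mul_le_mul_of_nonneg_left (pow_le_pow_of_le_one ht0 ht he) (by positivity)

/-- Labelled copies, with the falling factorial. -/
theorem deg_labelled {α : Type} [Fintype α] (F : SimpleGraph α) (H : SimpleGraph V) {n D : ℕ}
    {q : ℝ} (hV : Fintype.card V ≤ n) (hq : 0 < q) (hq1 : q ≤ 1) (hK : HypK H n q)
    (hD : DegLe H D) (hD1 : 1 ≤ D) (ht : 24 * (D : ℝ) * q ≤ 1) (ψ : α → V) :
    ((Ext F H ∅ univ ψ).card : ℝ) ≤ (n.descFactorial (Fintype.card α) : ℝ) *
      (Real.exp 1 ^ 2 * (24 * (D : ℝ)) * q) ^ F.edgeFinset.card := by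
  by_cases hne : (Ext F H ∅ univ ψ).Nonempty
  swap
  · rw [Finset.not_nonempty_iff_eq_empty] at hne
    rw [hne]
    simp only [card_empty, Nat.cast_zero]
    positivity
  obtain ⟨φ0, hφ0⟩ := hne
  set U := suppF F with hU
  set I : Finset α := univ \ U with hI
  obtain ⟨h01, h02, h03⟩ := mem_Ext.1 hφ0
  have hchain : ((Ext F H ∅ U ψ).card : ℝ) ≤ (n : ℝ) ^ U.card *
      (24 * (D : ℝ) * q) ^ F.edgeFinset.card := by
    have hsup : sup F.edgeFinset = U := rfl
    have hmain := gen_bound hV hq hq1 hK hD hD1 ht _ ↥(sup F.edgeFinset) (subG F.edgeFinset) rfl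
    rw [Fintype.card_coe, subG_edges (F := F) (le_refl _)] at hmain
    have hle : (Ext F H ∅ U ψ).card ≤ (Om H (subG F.edgeFinset)).card := by
      apply Finset.card_le_card_of_injOn (fun φ => fun a => φ a.1)
      · intro φ hφ
        obtain ⟨h1, h2, h3⟩ := mem_Ext.1 (Finset.mem_coe.1 hφ)
        refine Finset.mem_coe.2 (mem_Om.2 ⟨?_, ?_⟩)
        · intro a b hab
          apply Subtype.ext
          apply h2 _ _ hab
          · simp only [empty_union, Finset.mem_coe]
            exact a.2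
          · simp only [empty_union, Finset.mem_coe]
            exact b.2
        · rintro a b ⟨_, hab⟩
          apply h3
          · simp only [empty_union]
            exact a.2
          · simp only [empty_union]
            exact b.2
          · exact SimpleGraph.mem_edgeFinset.1 hab
      · intro φ hφ φ' hφ' h
        obtain ⟨h1, _, _⟩ := mem_Ext.1 (Finset.mem_coe.1 hφ)
        obtain ⟨h1', _, _⟩ := mem_Ext.1 (Finset.mem_coe.1 hφ')
        funext x
        by_cases hx : x ∈ U
        · exact congrFun h ⟨x, hx⟩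
        · rw [h1 x hx, h1' x hx]
    calc ((Ext F H ∅ U ψ).card : ℝ) ≤ ((Om H (subG F.edgeFinset)).card : ℝ) := by exact_mod_cast hle
      _ ≤ _ := hmain
  have hfib := ext_fibers F H (S := ∅) (B := U) (R := univ) ψ (Finset.subset_univ _) (by simp)
  have hUV : U.card ≤ n := by
    have : U.card ≤ (U.image φ0).card := by
      rw [Finset.card_image_of_injOn]
      intro a _ b _ hab
      exact h02 (by simp) (by simp) hab
    exact this.trans ((Finset.card_le_univ _).trans hV)
  have hfill : ∀ φ' ∈ Ext F H ∅ U ψ, (((Ext F H (∅ ∪ U) (univ \ U) φ').card : ℕ) : ℝ) ≤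
      ((n - U.card).descFactorial I.card : ℝ) := by
    intro φ' hφ'
    have hdU : Disjoint U I := Finset.disjoint_sdiff
    have hinj' : Set.InjOn φ' (↑U : Set α) := by
      intro a ha b hb hab
      exact (mem_Ext.1 hφ').2.1 (by simpa using ha) (by simpa using hb) hab
    have h1 := fill_count F H hdU hinj'
    rw [Finset.empty_union]
    have h2 : (Fintype.card V - U.card).descFactorial I.card ≤
        (n - U.card).descFactorial I.card := Nat.descFactorial_le _ (by omega)
    exact_mod_cast h1.trans h2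
  have hcount : ((Ext F H ∅ univ ψ).card : ℝ) ≤
      (Ext F H ∅ U ψ).card * ((n - U.card).descFactorial I.card : ℝ) := by
    calc ((Ext F H ∅ univ ψ).card : ℝ)
        ≤ (((Ext F H ∅ U ψ).biUnion (fun φ' => Ext F H (∅ ∪ U) (univ \ U) φ')).card : ℝ) := by
          exact_mod_cast Finset.card_le_card hfib
      _ ≤ _ := card_biUnion_real _ _ _ hfill
  have hcardI : U.card + I.card = Fintype.card α := by
    rw [hI, Finset.card_sdiff_of_subset (Finset.subset_univ _), Finset.card_univ]
    have := Finset.card_le_univ U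
    omega
  have hdesc : ((n - U.card).descFactorial I.card : ℝ) * (n.descFactorial U.card : ℝ) =
      (n.descFactorial (Fintype.card α) : ℝ) := by
    have := Nat.descFactorial_mul_descFactorial (n := n) (k := U.card) (m := Fintype.card α)
      (by omega)
    have e : Fintype.card α - U.card = I.card := by omega
    rw [e] at this
    exact_mod_cast this
  have hU2 : (U.card : ℝ) ≤ 2 * (F.edgeFinset.card : ℝ) := by
    exact_mod_cast card_suppF_le F
  set t := F.edgeFinset.card with ht'
  have hexpU : Real.exp (U.card : ℝ) ≤ Real.exp 1 ^ (2 * t) := by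
    rw [← Real.exp_nat_mul]
    apply Real.exp_le_exp.2
    push_cast
    linarith
  have hpowU := pow_le_exp_desc hUV
  have hD' : (0 : ℝ) ≤ ((n - U.card).descFactorial I.card : ℝ) := by positivity
  have hD2 : (0 : ℝ) ≤ (n.descFactorial U.card : ℝ) := by positivity
  have hq't : 0 ≤ (24 * (D : ℝ) * q) ^ t := by positivity
  have hstep : ((Ext F H ∅ U ψ).card : ℝ) ≤
      (Real.exp 1 ^ (2 * t) * (n.descFactorial U.card : ℝ)) * (24 * (D : ℝ) * q) ^ t := by
    calc _ ≤ _ := hchain
      _ ≤ (Real.exp (U.card : ℝ) * (n.descFactorial U.card : ℝ)) * (24 * (D : ℝ) * q) ^ t := by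
          gcongr
      _ ≤ _ := by gcongr
  calc ((Ext F H ∅ univ ψ).card : ℝ)
      ≤ (Ext F H ∅ U ψ).card * ((n - U.card).descFactorial I.card : ℝ) := hcount
    _ ≤ ((Real.exp 1 ^ (2 * t) * (n.descFactorial U.card : ℝ)) * (24 * (D : ℝ) * q) ^ t) *
          ((n - U.card).descFactorial I.card : ℝ) := mul_le_mul_of_nonneg_right hstep hD'
    _ = (((n - U.card).descFactorial I.card : ℝ) * (n.descFactorial U.card : ℝ)) *
        (Real.exp 1 ^ (2 * t) * (24 * (D : ℝ) * q) ^ t) := by ring
    _ = _ := by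
      rw [hdesc]
      congr 1
      rw [pow_mul, ← mul_pow]
      congr 1
      ring

lemma degLe_pos {H : SimpleGraph V} {D : ℕ} (hH : H ≠ ⊥) (hD : DegLe H D) : 1 ≤ D := by
  obtain ⟨a, b, hab⟩ : ∃ a b, H.Adj a b := by
    by_contra hcon
    push Not at hcon
    apply hH
    ext a b
    simp [hcon a b]
  have := hD a {b} (fun w hw => by rw [Finset.mem_singleton.1 hw]; exact hab)
  simpa using this

/-- The pointwise bound. -/
theorem deg_pointwise {n : ℕ} (H : SimpleGraph V) (hV : Fintype.card V ≤ n)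
    (hH : H ≠ ⊥) {D : ℕ} (hD : DegLe H D) {q : ℝ} (hq0 : 0 ≤ q) (hq1 : q ≤ 1)
    (hqF : ∀ F : H.Subgraph, (1 : ℝ) / 2 ≤ expCount n q F.coe) (F : H.Subgraph) :
    (H.copyCount F.coe : ℝ) ≤ expCount n (min 1 (180 * (D : ℝ) * q)) F.coe := by
  have hK := hypK_of hq0 hqF
  have hqpos : 0 < q := q_pos hH hq0 hK
  have hD1 := degLe_pos hH hD
  have hDr : (0 : ℝ) ≤ (D : ℝ) := by positivity
  by_cases hcase : 1 ≤ 180 * (D : ℝ) * q
  · rw [min_eq_left hcase]
    exact top_bound H hV F.coe
  · rw [not_le] at hcase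
    rw [min_eq_right hcase.le]
    have hA : (0 : ℝ) < Nat.card (F.coe ≃g F.coe) := by exact_mod_cast card_aut_pos F.coe
    apply le_of_mul_le_mul_right _ hA
    rw [copy_mul_eq, expCount_mul]
    by_cases hc : Nonempty (F.coe.Copy H)
    · obtain ⟨c⟩ := hc
      have h1 := labelled_le_ext F.coe H (⇑c)
      have ht : 24 * (D : ℝ) * q ≤ 1 := by
        have : 0 ≤ (D : ℝ) * q := by positivity
        nlinarith
      have h2 := deg_labelled F.coe H hV hqpos hq1 hK hD hD1 ht (⇑c)
      have h7 := Real.exp_one_lt_d9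
      have hexp1 := Real.exp_pos 1
      have h8 : Real.exp 1 ^ 2 ≤ 7.5 := by nlinarith
      have hbase : Real.exp 1 ^ 2 * (24 * (D : ℝ)) * q ≤ 180 * (D : ℝ) * q := by
        have : 0 ≤ (D : ℝ) * q := by positivity
        nlinarith
      calc (H.labelledCopyCount F.coe : ℝ) ≤ ((Ext F.coe H ∅ univ ⇑c).card : ℝ) := by
            exact_mod_cast h1
        _ ≤ _ := h2
        _ ≤ _ := by
            apply mul_le_mul_of_nonneg_left _ (by positivity)
            exact pow_le_pow_left₀ (by positivity) hbase _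
    · have h0 : H.labelledCopyCount F.coe = 0 := by
        rw [SimpleGraph.labelledCopyCount_eq_zero]
        exact fun hcon => hc hcon
      rw [h0]
      simp only [Nat.cast_zero]
      positivity

/-- The threshold comparison. -/
theorem deg_tilde {n : ℕ} (H : SimpleGraph V) (hV : Fintype.card V ≤ n) (hH : H ≠ ⊥) {D : ℕ}
    (hD : DegLe H D) :
    pTilde n H ≤ 180 * (D : ℝ) * pE n H := by
  set Cn : ℝ := 180 * (D : ℝ) with hCn
  have hCnpos : 1 ≤ Cn := by
    have : (1 : ℝ) ≤ (D : ℝ) := by exact_mod_cast degLe_pos hH hD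
    rw [hCn]
    linarith
  have hbdd : BddBelow {p : ℝ | 0 ≤ p ∧ p ≤ 1 ∧ ∀ F : H.Subgraph,
      (H.copyCount F.coe : ℝ) / 2 ≤ expCount n p F.coe} := ⟨0, fun p hp => hp.1⟩
  have hsubcount : ∀ F : H.Subgraph, 1 ≤ H.copyCount F.coe := by
    intro F
    have : 0 < H.copyCount F.coe := SimpleGraph.copyCount_pos.2 F.coe_isContained
    omega
  have htop : ∀ F : H.Subgraph, (H.copyCount F.coe : ℝ) ≤ expCount n 1 F.coe := by
    intro F
    exact top_bound H hV F.coe
  have h1E : (1 : ℝ) ∈ {p : ℝ | 0 ≤ p ∧ p ≤ 1 ∧ ∀ F : H.Subgraph,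
      (1 : ℝ) / 2 ≤ expCount n p F.coe} := by
    refine ⟨by norm_num, le_rfl, fun F => ?_⟩
    have h1 := htop F
    have h0 : (1 : ℝ) ≤ H.copyCount F.coe := by exact_mod_cast hsubcount F
    linarith
  have hkey : ∀ q ∈ {p : ℝ | 0 ≤ p ∧ p ≤ 1 ∧ ∀ F : H.Subgraph,
      (1 : ℝ) / 2 ≤ expCount n p F.coe}, pTilde n H / Cn ≤ q := by
    rintro q ⟨hq0, hq1, hqF⟩
    have hqpos : 0 < q := q_pos hH hq0 (hypK_of hq0 hqF)
    rw [div_le_iff₀ (by linarith)]
    have hmin : min 1 (Cn * q) ≤ q * Cn := by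
      rw [mul_comm q Cn]; exact min_le_right _ _
    refine le_trans ?_ hmin
    have hmem : min 1 (Cn * q) ∈ {p : ℝ | 0 ≤ p ∧ p ≤ 1 ∧ ∀ F : H.Subgraph,
        (H.copyCount F.coe : ℝ) / 2 ≤ expCount n p F.coe} := by
      refine ⟨le_min (by norm_num) (by positivity), min_le_left _ _, fun F => ?_⟩
      have h1 := deg_pointwise H hV hH hD hq0 hq1 hqF F
      have h0 : (0 : ℝ) ≤ H.copyCount F.coe := by positivity
      rw [hCn]
      linarith
    exact csInf_le hbdd hmem
  have hfinal : pTilde n H / Cn ≤ pE n H := le_csInf ⟨1, h1E⟩ hkey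
  rw [div_le_iff₀ (by linarith)] at hfinal
  rw [mul_comm] at hfinal
  exact hfinal

end Vale.Agent.Lib.P064D
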